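import Vale.Agent.Lib.P154.Chain.Check

set_option linter.all false

namespace Vale.Agent.Lib.P154.Chain.D7

/-- the global parameters -/
noncomputable def g : GP := ⟨7, 3780, 10000, 46, 30, 64, 94, 84⟩

/-- the operations of the power -/
noncomputable def ops : Ops := (Ops.sqm (Ops.sqm Ops.nil))

/-- a lattice -/
noncomputable def l0 : LP := ⟨1031, 1000, 41, 287, 177, (nat_lit 6260276366333234005608130525960619367482136911420790842210538831792967869218748900291198317318717881874458028619034883254854261624004746726432807670497948879001208151659727833775478317558066755191967439381003540516707668229355029319462546123387431529191071616354727484450952993080958222702276526285013802147286395629878678796248594334568443760874185476410343208346613974232728387322534973350482912540165622730701743689255484123397070159050473069002717493868958833537023854282209727450019759755088044009721594852983008901211004279632728681275627363448995456904053432559865360402233445255571483001347821508925353112583514480679404009205887575265901100974465612507805955321317882258372301689282770571910806899868632590552491746977286512485884338767095936773762362575863814509955144895602062738864843619143085380933831041528652663081211363535347054698949402184483811653541662810913310362904554858168242109994498757795703254918682497777164016151715267122409109035634124482137287842459386786348074779630302056218550140302289890328548475250837917380112199608646969664014727690029045440418451093253302465120220023786002146320192354663081004096455617637390427780536599433396448820743116492829428989469466921679617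655991562379199358418058801632214536622442181431520874245629979797926942944684633583482756643408958796390026800416864959990871716599624038614280837927409652927072087927607478114749802474112959676829918307093163565886813759651954751557405834121904376865618472665707490954711001157041074918026985115036793942507458758852069175251268788711960445352626373035782261132035351961881176958566654143856659518823826923121031812891213397794323663669947154383467465203880764092072452333199777906180566951490734597283291185597544613900342095051179194831411640325709588158421708300158313673563344150749832350914151239741290204180893679532737746671192672143667868919997943085349100076589352452201394648821507097517800747880774056101917425738947442069462382547661059031411507524486795721558519434160971580769698410122200577080335956130008741699575580575651567306707587302513443008579832122933932435156878553241289838629407983374037671446053592221123971424671228246072452978892269854646871425357487908426328432785026353086458452921714091142957196680309211883954290102365967513523219477676885670508783964540926838545196972295173039446319376529008548808460063525815913168932714054511827167918265729306899670903357520757792749971735035298126458459918475757012895583754525555629478252229403046571994522045612910741110721470331254338884441734827161201975059830374293778297958620270166016)⟩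

/-- the parameters of the class at the hand-off -/
noncomputable def hp : HP := ⟨277, 10000, 7, 1, 11, 5, 3, 2, 64⟩

set_option maxRecDepth 100000 in
theorem ops_ok : Ops.expo ops 1 = g.d := by
  decide +kernel

end Vale.Agent.Lib.P154.Chain.D7
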