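import Vale.Agent.Lib.P154.Chain.End
import Vale.Agent.Lib.P154.Chain.D7.H

set_option linter.all false

namespace Vale.Agent.Lib.P154.Chain.D7

open Vale.Agent.Lib.P154.Chain

theorem inv_0 : Inv g l0 0 S0.cp0 := by
  rw [S0.start_ok]
  exact inv_start S0.check_ok

theorem inv_r0_0 : Inv g l0 15 S0.rc0 := by
  have h := inv_run (n := 0) (k := 15) S0.check_ok ops_ok inv_0
  rw [S0.run_ok0] at h
  exact h

theorem inv_r0_1 : Inv g l0 17 S0.rc1 := by
  have h := inv_run (n := 15) (k := 2) S0.check_ok ops_ok inv_r0_0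
  rw [S0.run_ok1] at h
  exact h

theorem inv_s1 : Inv g l0 17 S1.cp0 := by
  have h : S1.cp0 = S0.rc1 := by
    decide +kernel
  rw [h]
  exact inv_r0_1

theorem inv_r1_0 : Inv g l0 34 S1.rc0 := by
  have h := inv_run (n := 17) (k := 17) S1.check_ok ops_ok inv_s1
  rw [S1.run_ok0] at h
  exact h

theorem inv_r1_1 : Inv g l0 51 S1.rc1 := by
  have h := inv_run (n := 34) (k := 17) S1.check_ok ops_ok inv_r1_0
  rw [S1.run_ok1] at h
  exact h

theorem inv_r1_2 : Inv g l0 57 S1.rc2 := by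
  have h := inv_run (n := 51) (k := 6) S1.check_ok ops_ok inv_r1_1
  rw [S1.run_ok2] at h
  exact h

theorem inv_s2 : Inv g l0 57 S2.cp0 := by
  have h : S2.cp0 = S1.rc2 := by
    decide +kernel
  rw [h]
  exact inv_r1_2

theorem inv_r2_0 : Inv g l0 75 S2.rc0 := by
  have h := inv_run (n := 57) (k := 18) S2.check_ok ops_ok inv_s2
  rw [S2.run_ok0] at h
  exact h

theorem inv_r2_1 : Inv g l0 93 S2.rc1 := by
  have h := inv_run (n := 75) (k := 18) S2.check_ok ops_ok inv_r2_0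
  rw [S2.run_ok1] at h
  exact h

theorem inv_r2_2 : Inv g l0 111 S2.rc2 := by
  have h := inv_run (n := 93) (k := 18) S2.check_ok ops_ok inv_r2_1
  rw [S2.run_ok2] at h
  exact h

theorem inv_e : Inv g l0 111 S2.cp1 := by
  have h : S2.cp1 = S2.rc2 := by
    decide +kernel
  rw [h]
  exact inv_r2_2

theorem hand : ∃ A : FF, A.Good ∧ (∀ G, Sublin G → Symm G → val (Xv g.d (lamOf g) (111 + 1)) G ≤ val A.F G)
      ∧ InClass ((hp.kapN : ℝ) / hp.kapD) ((hp.bpN : ℝ) / hp.bpD) ((hp.bmN : ℝ) / hp.bmD) (famEx A.F)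
          ((hp.Mn : ℝ) / hp.Md) :=
  handoff S2.check_ok ops_ok inv_e (by decide +kernel) (by decide +kernel) (by decide +kernel)
    (by decide +kernel) S2.hand_ok

/-- nonreconstruction at this degree -/
theorem tendsto_main {lam : ℝ} (h02 : lam ≤ 0) (hKS : ((7 : ℕ) : ℝ) * lam ^ 2 ≤ 1) :
    Filter.Tendsto (Vale.Agent.Lib.P154.reconError 7 3 lam) Filter.atTop (nhds 0) :=
  tendsto_of_chain (g := g) (h := hp) (by decide +kernel) hand (by decide +kernel)
    (lamOf_le_of_KS (by decide +kernel) (by decide +kernel) h02 hKS) h02 hKS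

end Vale.Agent.Lib.P154.Chain.D7
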